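import Mathlib

/-!
# S0010 (row 9), work package AS (assembly), steps A2–A6, abstract form  (helper48)

Abstract setting: fields `K`, `L`, subfields `F ≤ K`, `F' ≤ L` (to be instantiated by the
`p`-th powers), a family `adj x` of subfields of `L` (to be instantiated by `L^p(x)`), and a
relation `R : K → L → Prop` (to be instantiated by `R f z ↔ Θ[f] = m • [z]`).

Main result `LineData.exists_addHom`: there is an additive `α : K →+ L` with `α 1 = 1` and
`R u (α u)` for every `u ≠ 0`.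
-/

set_option autoImplicit false

namespace Crest.Agent.Helper48.S0010

variable {K L : Type*} [Field K] [Field L]

/-- Abstract data for the assembly step (A2–A8) of S0010. -/
structure LineData (F : Subfield K) (F' : Subfield L) (adj : L → Subfield L)
    (R : K → L → Prop) : Prop where
  le_adj : ∀ x, F' ≤ adj x
  mem_adj : ∀ x, x ∈ adj x
  adj_le : ∀ {x z}, z ∈ adj x → adj z ≤ adj x
  R0 : ∀ {f z}, R f z → f ≠ 0 ∧ z ≠ 0
  Rex : ∀ {f}, f ≠ 0 → ∃ z, R f z
  Rsurj : ∀ {z}, z ≠ 0 → ∃ f, R f z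
  R1 : ∀ {f z z'}, R f z → R f z' → z' / z ∈ F'
  R2 : ∀ {f z e}, R f z → e ∈ F' → e ≠ 0 → R f (e * z)
  R3 : ∀ {f z c}, R f z → c ∈ F → c ≠ 0 → R (c * f) z
  R4 : ∀ {f f' z}, R f z → R f' z → f' / f ∈ F
  R5 : ∀ {f g z w}, R f z → R g w → R (f * g) (z * w)
  symm : ∀ {x y}, x ∉ F' → y ∉ adj x → x ∉ adj y
  part : ∀ x x', ∃ y, y ∉ adj x ∧ y ∉ adj x'
  LL1 : ∀ {f g x y}, R f x → R g y → x ∉ F' → y ∉ adj x →
    ∃ (P Q : L) (lam : K → L), (∀ c ∈ F, lam c ∈ F') ∧
      ∀ c ∈ F, R (f + c) (P + lam c) ∧ R (g - c) (Q - lam c) ∧ R (f + g) (P + Q)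

namespace LineData

variable {F : Subfield K} {F' : Subfield L} {adj : L → Subfield L} {R : K → L → Prop}

section basics

variable (D : LineData F F' adj R)
include D

theorem ratio {f : K} {z z' : L} (h : R f z) (h' : R f z') :
    ∃ e ∈ F', e ≠ 0 ∧ z' = e * z := by
  have hz := (D.R0 h).2
  have hz' := (D.R0 h').2
  refine ⟨z' / z, D.R1 h h', div_ne_zero hz' hz, ?_⟩
  field_simp

theorem ratioK {f f' : K} {z : L} (h : R f z) (h' : R f' z) :
    ∃ c ∈ F, c ≠ 0 ∧ f' = c * f := by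
  have hf := (D.R0 h).1
  have hf' := (D.R0 h').1
  refine ⟨f' / f, D.R4 h h', div_ne_zero hf' hf, ?_⟩
  field_simp

theorem R_one : R 1 1 := by
  obtain ⟨z, hz⟩ := D.Rex (one_ne_zero : (1 : K) ≠ 0)
  have hz0 := (D.R0 hz).2
  have h2 : R 1 (z * z) := by simpa using D.R5 hz hz
  have hzF : z ∈ F' := by
    have := D.R1 hz h2
    rwa [mul_div_assoc, div_self hz0, mul_one] at this
  have := D.R2 hz (inv_mem hzF) (inv_ne_zero hz0)
  rwa [inv_mul_cancel₀ hz0] at this

theorem mem_of_mem {f : K} {z : L} (h : R f z) (hf : f ∈ F) : z ∈ F' := by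
  have h1 : R f 1 := by simpa using D.R3 D.R_one hf (D.R0 h).1
  simpa using D.R1 h1 h

theorem mem_of_mem' {f : K} {z : L} (h : R f z) (hz : z ∈ F') : f ∈ F := by
  have h1 : R 1 z := by simpa using D.R2 D.R_one hz (D.R0 h).2
  simpa using D.R4 h1 h

theorem notMem {f : K} {z : L} (h : R f z) (hf : f ∉ F) : z ∉ F' :=
  fun hz => hf (D.mem_of_mem' h hz)

theorem notMem' {f : K} {z : L} (h : R f z) (hz : z ∉ F') : f ∉ F :=
  fun hf => hz (D.mem_of_mem h hf)

theorem R_div {f g : K} {z w : L} (h : R f z) (h' : R g w) : R (f / g) (z / w) := by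
  have hg := (D.R0 h').1
  have hw := (D.R0 h').2
  have hz := (D.R0 h).2
  obtain ⟨v, hv⟩ := D.Rex (div_ne_zero (D.R0 h).1 hg)
  have hv0 := (D.R0 hv).2
  have h1 : R f (v * w) := by
    have := D.R5 hv h'
    rwa [div_mul_cancel₀ _ hg] at this
  obtain ⟨e, he, he0, hee⟩ := D.ratio h1 h
  have := D.R2 hv he he0
  have h3 : e * v = z / w := by
    rw [hee]; field_simp
  rwa [h3] at this

/-- linear independence of `1, x` over `F'` -/
theorem indep2 {x a b : L} (hx : x ∉ F') (ha : a ∈ F') (hb : b ∈ F') (h : a + b * x = 0) :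
    a = 0 ∧ b = 0 := by
  by_cases hb0 : b = 0
  · subst hb0; simp at h; exact ⟨h, rfl⟩
  · exfalso
    apply hx
    have : x = -a / b := by field_simp; linear_combination h
    rw [this]
    exact div_mem (neg_mem ha) hb

/-- linear independence of `1, x, y` over `F'` -/
theorem indep3 {x y a b c : L} (hx : x ∉ F') (hy : y ∉ adj x) (ha : a ∈ F') (hb : b ∈ F')
    (hc : c ∈ F') (h : a + b * x + c * y = 0) : a = 0 ∧ b = 0 ∧ c = 0 := by
  by_cases hc0 : c = 0
  · subst hc0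
    have := D.indep2 hx ha hb (by simpa using h)
    exact ⟨this.1, this.2, rfl⟩
  · exfalso
    apply hy
    have : y = -(a + b * x) / c := by field_simp; linear_combination h
    rw [this]
    exact div_mem (neg_mem (add_mem (D.le_adj x ha) (mul_mem (D.le_adj x hb) (D.mem_adj x))))
      (D.le_adj x hc)

end basics


section A2

variable (D : LineData F F' adj R)
include D

theorem exists_partner (x x' : L) : ∃ g y, R g y ∧ y ∉ adj x ∧ y ∉ adj x' := by
  obtain ⟨y, hy, hy'⟩ := D.part x x'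
  have hy0 : y ≠ 0 := fun h => hy (h ▸ (adj x).zero_mem)
  obtain ⟨g, hg⟩ := D.Rsurj hy0
  exact ⟨g, y, hg, hy, hy'⟩

theorem exists_notMem : ∃ f : K, f ∉ F := by
  obtain ⟨g, y, hg, hy, -⟩ := D.exists_partner 1 1
  exact ⟨g, D.notMem' hg (fun h => hy (D.le_adj _ h))⟩

/-- line lemma, normalised so that `lam 0 = 0`; also `lam 1 ≠ 0`. -/
theorem LL2 {f g : K} {x y : L} (hf : R f x) (hg : R g y) (hx : x ∉ F') (hy : y ∉ adj x) :
    ∃ (P Q : L) (lam : K → L), (∀ c ∈ F, lam c ∈ F') ∧ lam 0 = 0 ∧ lam 1 ≠ 0 ∧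
      ∀ c ∈ F, R (f + c) (P + lam c) ∧ R (g - c) (Q - lam c) ∧ R (f + g) (P + Q) := by
  obtain ⟨P, Q, lam, hlam, h⟩ := D.LL1 hf hg hx hy
  refine ⟨P + lam 0, Q - lam 0, fun c => lam c - lam 0, ?_, by simp, ?_, ?_⟩
  · intro c hc; exact sub_mem (hlam c hc) (hlam 0 F.zero_mem)
  · intro h10
    have h1 := (h 1 F.one_mem).1
    have h0 := (h 0 F.zero_mem).1
    have h10' : lam 1 = lam 0 := by linear_combination h10
    rw [h10'] at h1
    rw [add_zero] at h0
    obtain ⟨c, hc, hc0, hcc⟩ := D.ratioK h0 h1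
    have hfF : f ∉ F := D.notMem' hf hx
    apply hfF
    have hc1 : c - 1 ≠ 0 := by
      intro h'
      have : c = 1 := by linear_combination h'
      rw [this] at hcc; simp at hcc
    have : f = 1 / (c - 1) := by
      field_simp
      linear_combination -hcc
    rw [this]; exact div_mem F.one_mem (sub_mem hc F.one_mem)
  · intro c hc
    obtain ⟨h1, h2, h3⟩ := h c hc
    refine ⟨?_, ?_, ?_⟩
    · convert h1 using 1; ring
    · convert h2 using 1; ring
    · convert h3 using 1; ring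

theorem exists_a0 {f : K} (hf : f ∉ F) : ∃ z, R f z ∧ R (f + 1) (z + 1) := by
  have hf0 : f ≠ 0 := fun h => hf (h ▸ F.zero_mem)
  obtain ⟨x, hx⟩ := D.Rex hf0
  have hxF := D.notMem hx hf
  obtain ⟨g, y, hg, hy, -⟩ := D.exists_partner x x
  obtain ⟨P, Q, lam, hlam, h0, h1, h⟩ := D.LL2 hx hg hxF hy
  have hP : R f P := by simpa [h0] using (h 0 F.zero_mem).1
  have hP1 : R (f + 1) (P + lam 1) := (h 1 F.one_mem).1
  have hl := hlam 1 F.one_mem
  refine ⟨(lam 1)⁻¹ * P, D.R2 hP (inv_mem hl) (inv_ne_zero h1), ?_⟩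
  have := D.R2 hP1 (inv_mem hl) (inv_ne_zero h1)
  convert this using 1
  field_simp

theorem a0_unique' {f : K} {z z' : L} (hf : f ∉ F) (h : R f z) (h1 : R (f + 1) (z + 1))
    (h' : R f z') (h1' : R (f + 1) (z' + 1)) : z = z' := by
  obtain ⟨a, ha, ha0, haa⟩ := D.ratio h h'
  obtain ⟨b, hb, hb0, hbb⟩ := D.ratio h1 h1'
  have hz := D.notMem h hf
  have key : (1 - b) + (a - b) * z = 0 := by rw [haa] at hbb; linear_combination hbb
  obtain ⟨e1, e2⟩ := D.indep2 hz (sub_mem F'.one_mem hb) (sub_mem ha hb) key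
  have hb1 : b = 1 := by linear_combination -e1
  have ha1 : a = 1 := by linear_combination e2 + hb1
  rw [haa, ha1, one_mul]

end A2

open Classical in
/-- the (partial) map `α` on `K ∖ F`: the unique `z` with `R f z` and `R (f+1) (z+1)`. -/
noncomputable def a0 (D : LineData F F' adj R) (f : K) : L :=
  if h : f ∉ F then Classical.choose (D.exists_a0 h) else 0

section A2b

variable (D : LineData F F' adj R)

theorem a0_spec {f : K} (hf : f ∉ F) : R f (D.a0 f) ∧ R (f + 1) (D.a0 f + 1) := by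
  unfold a0; rw [dif_pos hf]; exact Classical.choose_spec (D.exists_a0 hf)

theorem a0_unique {f : K} {z : L} (hf : f ∉ F) (h : R f z) (h1 : R (f + 1) (z + 1)) :
    z = D.a0 f :=
  D.a0_unique' hf h h1 (D.a0_spec hf).1 (D.a0_spec hf).2

theorem a0_notMem {f : K} (hf : f ∉ F) : D.a0 f ∉ F' := D.notMem (D.a0_spec hf).1 hf

theorem a0_ne_zero {f : K} (hf : f ∉ F) : D.a0 f ≠ 0 := (D.R0 (D.a0_spec hf).1).2

theorem a0_notMem_adj {g : K} {x y : L} (hg : R g y) (hgF : g ∉ F) (hy : y ∉ adj x) :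
    D.a0 g ∉ adj x := by
  obtain ⟨e, he, he0, hee⟩ := D.ratio (D.a0_spec hgF).1 hg
  intro h
  apply hy
  rw [hee]
  exact mul_mem (D.le_adj x he) h

/-- normalised line lemma -/
theorem NLL {f g : K} (hf : f ∉ F) (hg : g ∉ F) (hgen : D.a0 g ∉ adj (D.a0 f)) :
    ∃ (q : L) (lam : K → L), q ∈ F' ∧ q ≠ 0 ∧ (∀ c ∈ F, lam c ∈ F') ∧
      ∀ c ∈ F, R (f + c) (D.a0 f + lam c) ∧ R (g - c) (q * D.a0 g - lam c) ∧
        R (f + g) (D.a0 f + q * D.a0 g) := by
  have hfa := D.a0_spec hf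
  have hga := D.a0_spec hg
  obtain ⟨P, Q, lam, hlam, h0, h1, h⟩ := D.LL2 hfa.1 hga.1 (D.a0_notMem hf) hgen
  have hl := hlam 1 F.one_mem
  have hP : R f P := by simpa [h0] using (h 0 F.zero_mem).1
  have hP1 : R (f + 1) (P + lam 1) := (h 1 F.one_mem).1
  have hPa : (lam 1)⁻¹ * P = D.a0 f := by
    apply D.a0_unique hf (D.R2 hP (inv_mem hl) (inv_ne_zero h1))
    have := D.R2 hP1 (inv_mem hl) (inv_ne_zero h1)
    convert this using 1
    field_simp
  have hQ : R g Q := by simpa [h0] using (h 0 F.zero_mem).2.1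
  obtain ⟨e, he, he0, hee⟩ := D.ratio hga.1 hQ
  refine ⟨(lam 1)⁻¹ * e, fun c => (lam 1)⁻¹ * lam c, mul_mem (inv_mem hl) he,
    mul_ne_zero (inv_ne_zero h1) he0, fun c hc => mul_mem (inv_mem hl) (hlam c hc), ?_⟩
  intro c hc
  obtain ⟨h1', h2', h3'⟩ := h c hc
  refine ⟨?_, ?_, ?_⟩
  · have := D.R2 h1' (inv_mem hl) (inv_ne_zero h1)
    convert this using 1
    rw [← hPa]; ring
  · have := D.R2 h2' (inv_mem hl) (inv_ne_zero h1)
    convert this using 1
    rw [hee]; ring
  · have := D.R2 h3' (inv_mem hl) (inv_ne_zero h1)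
    convert this using 1
    rw [← hPa, hee]; ring

theorem exists_lamf {f c : K} (hf : f ∉ F) (hc : c ∈ F) :
    ∃ μ, μ ∈ F' ∧ R (f + c) (D.a0 f + μ) := by
  obtain ⟨g, y, hg, hy, -⟩ := D.exists_partner (D.a0 f) (D.a0 f)
  have hgF : g ∉ F := D.notMem' hg (fun h => hy (D.le_adj _ h))
  have hgen : D.a0 g ∉ adj (D.a0 f) := D.a0_notMem_adj hg hgF hy
  obtain ⟨q, lam, -, -, hlam, h⟩ := D.NLL hf hgF hgen
  exact ⟨lam c, hlam c hc, (h c hc).1⟩

theorem lamf_unique' {f c : K} {μ μ' : L} (hf : f ∉ F) (hμ : μ ∈ F') (hμ' : μ' ∈ F')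
    (h : R (f + c) (D.a0 f + μ)) (h' : R (f + c) (D.a0 f + μ')) : μ = μ' := by
  obtain ⟨e, he, he0, hee⟩ := D.ratio h h'
  have key : (μ' - e * μ) + (1 - e) * D.a0 f = 0 := by linear_combination hee
  obtain ⟨e1, e2⟩ := D.indep2 (D.a0_notMem hf) (sub_mem hμ' (mul_mem he hμ))
    (sub_mem F'.one_mem he) key
  have h1 : e = 1 := by linear_combination -e2
  rw [h1] at e1; linear_combination -e1

end A2b

open Classical in
/-- `lamf f c` (for `f ∉ F`, `c ∈ F`): the unique `μ ∈ F'` with `R (f + c) (a0 f + μ)`. -/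
noncomputable def lamf (D : LineData F F' adj R) (f c : K) : L :=
  if h : f ∉ F ∧ c ∈ F then Classical.choose (D.exists_lamf h.1 h.2) else 0

section A3

variable (D : LineData F F' adj R)

theorem lamf_spec {f c : K} (hf : f ∉ F) (hc : c ∈ F) :
    D.lamf f c ∈ F' ∧ R (f + c) (D.a0 f + D.lamf f c) := by
  unfold lamf; rw [dif_pos ⟨hf, hc⟩]; exact Classical.choose_spec (D.exists_lamf hf hc)

theorem lamf_unique {f c : K} {μ : L} (hf : f ∉ F) (hc : c ∈ F) (hμ : μ ∈ F')
    (h : R (f + c) (D.a0 f + μ)) : μ = D.lamf f c :=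
  D.lamf_unique' hf hμ (D.lamf_spec hf hc).1 h (D.lamf_spec hf hc).2

theorem lamf_zero {f : K} (hf : f ∉ F) : D.lamf f 0 = 0 := by
  symm
  apply D.lamf_unique hf F.zero_mem F'.zero_mem
  simpa using (D.a0_spec hf).1

theorem lamf_one {f : K} (hf : f ∉ F) : D.lamf f 1 = 1 := by
  symm
  exact D.lamf_unique hf F.one_mem F'.one_mem (D.a0_spec hf).2

theorem lamf_inj {f c c' : K} (hf : f ∉ F) (hc : c ∈ F) (hc' : c' ∈ F)
    (h : D.lamf f c = D.lamf f c') : c = c' := by
  have h1 := (D.lamf_spec hf hc).2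
  have h2 := (D.lamf_spec hf hc').2
  rw [h] at h1
  obtain ⟨e, he, he0, hee⟩ := D.ratioK h1 h2
  by_contra hne
  apply hf
  have he1 : 1 - e ≠ 0 := by
    intro h'
    have : e = 1 := by linear_combination -h'
    rw [this, one_mul] at hee
    exact hne (by linear_combination -hee)
  have : f = (e * c - c') / (1 - e) := by
    field_simp
    linear_combination hee
  rw [this]
  exact div_mem (sub_mem (mul_mem he hc) hc') (sub_mem F.one_mem he)

/-- normalised line lemma with `lamf` -/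
theorem NLL' {f g : K} (hf : f ∉ F) (hg : g ∉ F) (hgen : D.a0 g ∉ adj (D.a0 f)) :
    ∃ q ∈ F', q ≠ 0 ∧ ∀ c ∈ F, R (g - c) (q * D.a0 g - D.lamf f c) ∧
        R (f + g) (D.a0 f + q * D.a0 g) := by
  obtain ⟨q, lam, hq, hq0, hlam, h⟩ := D.NLL hf hg hgen
  refine ⟨q, hq, hq0, fun c hc => ?_⟩
  obtain ⟨h1, h2, h3⟩ := h c hc
  have := D.lamf_unique hf hc (hlam c hc) h1
  rw [← this]
  exact ⟨h2, h3⟩

include D in
/-- lines go to lines (the only case needed) -/
theorem line_add {u v : K} {u' v' : L} (hu : R u u') (hv : R v v') (huv : v / u ∉ F) :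
    ∃ e ∈ F', R (u + v) (u' + e * v') := by
  have hu0 := (D.R0 hu).1
  have hu0' := (D.R0 hu).2
  have hv0' := (D.R0 hv).2
  have hfa := D.a0_spec huv
  have hdiv := D.R_div hv hu
  obtain ⟨e, he, he0, hee⟩ := D.ratio hdiv hfa.1
  refine ⟨e, he, ?_⟩
  have := D.R5 hu hfa.2
  convert this using 1
  · field_simp; ring
  · rw [hee]; field_simp; ring

end A3


/-- generic pair: `f, g ∉ F` and `α g ∉ adj (α f)`. -/
def Gen (D : LineData F F' adj R) (f g : K) : Prop :=
  f ∉ F ∧ g ∉ F ∧ D.a0 g ∉ adj (D.a0 f)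

section A4

variable (D : LineData F F' adj R)

theorem Gen.symm {D : LineData F F' adj R} {f g : K} (h : D.Gen f g) : D.Gen g f :=
  ⟨h.2.1, h.1, D.symm (D.a0_notMem h.1) h.2.2⟩

theorem exists_gen {f f' : K} (hf : f ∉ F) (hf' : f' ∉ F) : ∃ g, D.Gen f g ∧ D.Gen f' g := by
  obtain ⟨g, y, hg, hy, hy'⟩ := D.exists_partner (D.a0 f) (D.a0 f')
  have hgF : g ∉ F := D.notMem' hg (fun h => hy (D.le_adj _ h))
  exact ⟨g, ⟨hf, hgF, D.a0_notMem_adj hg hgF hy⟩, ⟨hf', hgF, D.a0_notMem_adj hg hgF hy'⟩⟩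

/-- A4: additivity on generic pairs (and `q = 1` in the normalised line lemma). -/
theorem gen_add {f g : K} (h : D.Gen f g) :
    f + g ∉ F ∧ D.a0 (f + g) = D.a0 f + D.a0 g ∧
      ∀ c ∈ F, R (g - c) (D.a0 g - D.lamf f c) := by
  obtain ⟨hf, hg, hgen⟩ := h
  have hxF : D.a0 f ∉ F' := D.a0_notMem hf
  have hyF : D.a0 g ∉ F' := D.a0_notMem hg
  have hxy : D.a0 f ∉ adj (D.a0 g) := D.symm hxF hgen
  obtain ⟨q, hq, hq0, hN⟩ := D.NLL' hf hg hgen
  have hfg : R (f + g) (D.a0 f + q * D.a0 g) := (hN 0 F.zero_mem).2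
  have hfx : R f (D.a0 f) := (D.a0_spec hf).1
  have hgx : R g (D.a0 g) := (D.a0_spec hg).1
  have hf1 : R (1 + f) (1 + D.a0 f) := by
    have := (D.a0_spec hf).2
    rwa [add_comm f, add_comm (D.a0 f)] at this
  have hg1 : R (1 + g) (1 + D.a0 g) := by
    have := (D.a0_spec hg).2
    rwa [add_comm g, add_comm (D.a0 g)] at this
  -- line through [1+f], [g]
  have h2 : g / (1 + f) ∉ F := by
    intro hc
    have hc0 : g / (1 + f) ≠ 0 := div_ne_zero (D.R0 hgx).1 (D.R0 hf1).1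
    have := D.R3 hf1 hc hc0
    rw [div_mul_cancel₀ _ (D.R0 hf1).1] at this
    obtain ⟨e, he, he0, hee⟩ := D.ratio this hgx
    apply hgen
    rw [hee]
    exact mul_mem (D.le_adj _ he) (add_mem (adj _).one_mem (D.mem_adj _))
  obtain ⟨e1, he1, hl1⟩ := D.line_add hf1 hgx h2
  -- line through [1+g], [f]
  have h3 : f / (1 + g) ∉ F := by
    intro hc
    have hc0 : f / (1 + g) ≠ 0 := div_ne_zero (D.R0 hfx).1 (D.R0 hg1).1
    have := D.R3 hg1 hc hc0
    rw [div_mul_cancel₀ _ (D.R0 hg1).1] at this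
    obtain ⟨e, he, he0, hee⟩ := D.ratio this hfx
    apply hxy
    rw [hee]
    exact mul_mem (D.le_adj _ he) (add_mem (adj _).one_mem (D.mem_adj _))
  obtain ⟨e2, he2, hl2⟩ := D.line_add hg1 hfx h3
  have hl2' : R (1 + f + g) (1 + D.a0 g + e2 * D.a0 f) := by
    convert hl2 using 1; ring
  obtain ⟨s, hs, hs0, hss⟩ := D.ratio hl1 hl2'
  have key : (1 - s) + (e2 - s) * D.a0 f + (1 - s * e1) * D.a0 g = 0 := by
    linear_combination hss
  obtain ⟨k1, k2, k3⟩ := D.indep3 hxF hgen (sub_mem F'.one_mem hs) (sub_mem he2 hs)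
    (sub_mem F'.one_mem (mul_mem hs he1)) key
  have hs1 : s = 1 := by linear_combination -k1
  have he11 : e1 = 1 := by rw [hs1] at k3; linear_combination -k3
  have h1fg : R (1 + f + g) (1 + D.a0 f + D.a0 g) := by
    rw [he11, one_mul] at hl1; exact hl1
  -- f + g ∉ F
  have hfgF : f + g ∉ F := by
    intro hF
    have hm := D.mem_of_mem hfg hF
    have key : (-(D.a0 f + q * D.a0 g)) + 1 * D.a0 f + q * D.a0 g = 0 := by ring
    obtain ⟨-, k2, -⟩ := D.indep3 hxF hgen (neg_mem hm) F'.one_mem hq key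
    exact one_ne_zero k2
  have hz := D.a0_spec hfgF
  obtain ⟨t, ht, ht0, htt⟩ := D.ratio hfg hz.1
  have h1fg' : R (f + g + 1) (1 + D.a0 f + D.a0 g) := by
    convert h1fg using 1; ring
  obtain ⟨r, hr, hr0, hrr⟩ := D.ratio h1fg' hz.2
  have key : (1 - r) + (t - r) * D.a0 f + (t * q - r) * D.a0 g = 0 := by
    rw [htt] at hrr; linear_combination hrr
  obtain ⟨k1, k2, k3⟩ := D.indep3 hxF hgen (sub_mem F'.one_mem hr) (sub_mem ht hr)
    (sub_mem (mul_mem ht hq) hr) key
  have hr1 : r = 1 := by linear_combination -k1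
  have ht1 : t = 1 := by linear_combination k2 + hr1
  have hq1 : q = 1 := by rw [ht1, hr1] at k3; linear_combination k3
  refine ⟨hfgF, ?_, ?_⟩
  · rw [htt, ht1, hq1]; ring
  · intro c hc
    have := (hN c hc).1
    rwa [hq1, one_mul] at this

theorem Gen.add_right {D : LineData F F' adj R} {f g : K} (h : D.Gen f g) : D.Gen f (f + g) := by
  obtain ⟨h1, h2, -⟩ := D.gen_add h
  refine ⟨h.1, h1, ?_⟩
  rw [h2]
  intro hc
  apply h.2.2
  have := sub_mem hc (D.mem_adj (D.a0 f))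
  simpa using this

theorem Gen.add_left {D : LineData F F' adj R} {f g : K} (h : D.Gen f g) : D.Gen (f + g) g := by
  have h' := h.symm.add_right
  rw [add_comm] at h'
  exact h'.symm

end A4

section A5

variable (D : LineData F F' adj R)

theorem lamf_neg_of_gen {f g : K} (h : D.Gen f g) {c : K} (hc : c ∈ F) :
    D.lamf g (-c) = - D.lamf f c := by
  have h1 := (D.gen_add h).2.2 c hc
  have := D.lamf_unique h.2.1 (neg_mem hc) (neg_mem (D.lamf_spec h.1 hc).1)
    (by convert h1 using 1 <;> ring)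
  exact this.symm

theorem lamf_add_of_gen {f g : K} (h : D.Gen f g) {c : K} (hc : c ∈ F) :
    D.lamf (f + g) c = D.lamf f c := by
  have e1 := D.lamf_neg_of_gen h hc
  have e2 := D.lamf_neg_of_gen h.add_left hc
  linear_combination e2 - e1

theorem lamf_odd {f : K} (hf : f ∉ F) {c : K} (hc : c ∈ F) :
    D.lamf f (-c) = - D.lamf f c := by
  obtain ⟨g, hg, -⟩ := D.exists_gen hf hf
  have e4 := D.lamf_neg_of_gen hg.add_right hc
  have e3 := D.lamf_add_of_gen hg (neg_mem hc)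
  rw [← e3, e4]

theorem lamf_eq_of_gen {f g : K} (h : D.Gen f g) {c : K} (hc : c ∈ F) :
    D.lamf g c = D.lamf f c := by
  have e1 := D.lamf_neg_of_gen h (neg_mem hc)
  rw [neg_neg] at e1
  rw [e1, D.lamf_odd h.1 hc, neg_neg]

theorem lamf_eq {f f' : K} (hf : f ∉ F) (hf' : f' ∉ F) {c : K} (hc : c ∈ F) :
    D.lamf f c = D.lamf f' c := by
  obtain ⟨g, hg, hg'⟩ := D.exists_gen hf hf'
  rw [← D.lamf_eq_of_gen hg hc, ← D.lamf_eq_of_gen hg' hc]

end A5

/-- the map `τ : F → F'` (as a function `K → L`). -/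
noncomputable def tau (D : LineData F F' adj R) (c : K) : L :=
  D.lamf (Classical.choose D.exists_notMem) c

section A5b

variable (D : LineData F F' adj R)

theorem tau_eq {f : K} (hf : f ∉ F) {c : K} (hc : c ∈ F) : D.tau c = D.lamf f c :=
  D.lamf_eq (Classical.choose_spec D.exists_notMem) hf hc

theorem tau_mem {c : K} (hc : c ∈ F) : D.tau c ∈ F' :=
  (D.lamf_spec (Classical.choose_spec D.exists_notMem) hc).1

theorem tau_spec {f c : K} (hf : f ∉ F) (hc : c ∈ F) : R (f + c) (D.a0 f + D.tau c) := by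
  rw [D.tau_eq hf hc]; exact (D.lamf_spec hf hc).2

theorem tau_zero : D.tau 0 = 0 := D.lamf_zero (Classical.choose_spec D.exists_notMem)

theorem tau_one : D.tau 1 = 1 := D.lamf_one (Classical.choose_spec D.exists_notMem)

theorem tau_inj {c c' : K} (hc : c ∈ F) (hc' : c' ∈ F) (h : D.tau c = D.tau c') : c = c' :=
  D.lamf_inj (Classical.choose_spec D.exists_notMem) hc hc' h

theorem tau_ne_zero {c : K} (hc : c ∈ F) (hc0 : c ≠ 0) : D.tau c ≠ 0 := by
  intro h
  exact hc0 (D.tau_inj hc F.zero_mem (by rw [h, D.tau_zero]))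

theorem add_notMem {f c : K} (hf : f ∉ F) (hc : c ∈ F) : f + c ∉ F := by
  intro h
  apply hf
  have := sub_mem h hc
  simpa using this

/-- first form of `α (f + c)`. -/
theorem a0_add_F_aux {f c : K} (hf : f ∉ F) (hc : c ∈ F) :
    ∃ e ∈ F', D.a0 (f + c) = e * (D.a0 f + D.tau c) ∧ e * (D.tau (c + 1) - D.tau c) = 1 := by
  have hfc := add_notMem hf hc
  have hz := D.a0_spec hfc
  have h1 := D.tau_spec hf hc
  have h2 := D.tau_spec hf (add_mem hc F.one_mem)
  rw [← add_assoc] at h2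
  obtain ⟨e, he, he0, hee⟩ := D.ratio h1 hz.1
  obtain ⟨e', he', he0', hee'⟩ := D.ratio h2 hz.2
  have key : (e * D.tau c + 1 - e' * D.tau (c + 1)) + (e - e') * D.a0 f = 0 := by
    rw [hee] at hee'; linear_combination hee'
  obtain ⟨k1, k2⟩ := D.indep2 (D.a0_notMem hf)
    (sub_mem (add_mem (mul_mem he (D.tau_mem hc)) F'.one_mem)
      (mul_mem he' (D.tau_mem (add_mem hc F.one_mem))))
    (sub_mem he he') key
  have hee2 : e' = e := by linear_combination -k2
  rw [hee2] at k1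
  exact ⟨e, he, hee, by linear_combination -k1⟩

/-- A5: `α (f + c) = α f + τ c`. -/
theorem a0_add_F {f c : K} (hf : f ∉ F) (hc : c ∈ F) :
    D.a0 (f + c) = D.a0 f + D.tau c := by
  obtain ⟨e, he, hee, hed⟩ := D.a0_add_F_aux hf hc
  obtain ⟨g, hg, -⟩ := D.exists_gen hf hf
  have hfc := add_notMem hf hc
  have hgen' : D.Gen (f + c) g := by
    refine ⟨hfc, hg.2.1, fun h => hg.2.2 ?_⟩
    have hmem : D.a0 (f + c) ∈ adj (D.a0 f) := by
      rw [hee]
      exact mul_mem (D.le_adj _ he) (add_mem (D.mem_adj _) (D.le_adj _ (D.tau_mem hc)))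
    exact D.adj_le hmem h
  obtain ⟨-, ha1, -⟩ := D.gen_add hgen'
  obtain ⟨hfg, ha2, -⟩ := D.gen_add hg
  obtain ⟨e'', he'', hee'', hed''⟩ := D.a0_add_F_aux hfg hc
  have hd0 : D.tau (c + 1) - D.tau c ≠ 0 := by
    intro h0; rw [h0, mul_zero] at hed; exact zero_ne_one hed
  have hee3 : e'' = e := by
    apply mul_right_cancel₀ hd0
    rw [hed, hed'']
  have hcomm : f + c + g = f + g + c := by ring
  rw [hcomm, hee'', hee3, ha2, hee] at ha1
  have hg0 := D.a0_ne_zero hg.2.1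
  have he1 : e = 1 := by
    have : (1 - e) * D.a0 g = 0 := by linear_combination -ha1
    rcases mul_eq_zero.mp this with h | h
    · linear_combination -h
    · exact absurd h hg0
  rw [hee, he1, one_mul]

theorem tau_add {c c' : K} (hc : c ∈ F) (hc' : c' ∈ F) :
    D.tau (c + c') = D.tau c + D.tau c' := by
  obtain ⟨f, hf⟩ := D.exists_notMem
  have h1 := D.a0_add_F hf (add_mem hc hc')
  have h2 := D.a0_add_F (add_notMem hf hc) hc'
  rw [D.a0_add_F hf hc, add_assoc] at h2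
  rw [h1] at h2
  linear_combination h2

end A5b

open Classical in
/-- the map `α`. -/
noncomputable def alpha (D : LineData F F' adj R) (f : K) : L :=
  if f ∈ F then D.tau f else D.a0 f

section A6

variable (D : LineData F F' adj R)

theorem alpha_of_mem {f : K} (hf : f ∈ F) : D.alpha f = D.tau f := by
  unfold alpha; rw [if_pos hf]

theorem alpha_of_notMem {f : K} (hf : f ∉ F) : D.alpha f = D.a0 f := by
  unfold alpha; rw [if_neg hf]

/-- A6, the non-generic case. -/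
theorem a0_add_nongen {f g : K} (hf : f ∉ F) (hg : g ∉ F) (hng : D.a0 g ∈ adj (D.a0 f)) :
    (f + g ∈ F → D.tau (f + g) = D.a0 f + D.a0 g) ∧
    (f + g ∉ F → D.a0 (f + g) = D.a0 f + D.a0 g) := by
  obtain ⟨h, hfh, -⟩ := D.exists_gen hf hf
  have hgh : D.Gen g h := ⟨hg, hfh.2.1, fun hc => hfh.2.2 (D.adj_le hng hc)⟩
  obtain ⟨hghF, hgha, -⟩ := D.gen_add hgh
  have hf_gh : D.Gen f (g + h) := by
    refine ⟨hf, hghF, ?_⟩
    rw [hgha]
    intro hc
    apply hfh.2.2
    have := sub_mem hc hng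
    simpa using this
  obtain ⟨-, hsum, -⟩ := D.gen_add hf_gh
  rw [hgha] at hsum
  constructor
  · intro hF
    have h1 := D.a0_add_F hfh.2.1 hF
    have hcomm : h + (f + g) = f + (g + h) := by ring
    rw [hcomm, hsum] at h1
    linear_combination -h1
  · intro hF
    have hfg0 : f + g ≠ 0 := fun h0 => hF (h0 ▸ F.zero_mem)
    have hf0 : f ≠ 0 := fun h0 => hf (h0 ▸ F.zero_mem)
    have hmem : D.a0 (f + g) ∈ adj (D.a0 f) := by
      by_cases hgf : g / f ∈ F
      · have h1c : 1 + g / f ≠ 0 := by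
          intro h0
          apply hfg0
          have : f + g = f * (1 + g / f) := by field_simp
          rw [this, h0, mul_zero]
        have := D.R3 (D.a0_spec hf).1 (add_mem F.one_mem hgf) h1c
        have heq : (1 + g / f) * f = f + g := by field_simp
        rw [heq] at this
        obtain ⟨e, he, he0, hee⟩ := D.ratio this (D.a0_spec hF).1
        rw [hee]
        exact mul_mem (D.le_adj _ he) (D.mem_adj _)
      · obtain ⟨e, he, hl⟩ := D.line_add (D.a0_spec hf).1 (D.a0_spec hg).1 hgf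
        obtain ⟨e', he', he0', hee'⟩ := D.ratio hl (D.a0_spec hF).1
        rw [hee']
        exact mul_mem (D.le_adj _ he') (add_mem (D.mem_adj _) (mul_mem (D.le_adj _ he) hng))
    have hgen : D.Gen (f + g) h := ⟨hF, hfh.2.1, fun hc => hfh.2.2 (D.adj_le hmem hc)⟩
    obtain ⟨-, h2, -⟩ := D.gen_add hgen
    have hcomm : f + g + h = f + (g + h) := by ring
    rw [hcomm, hsum] at h2
    linear_combination -h2

/-- A6: `α` is additive. -/
theorem alpha_add (f g : K) : D.alpha (f + g) = D.alpha f + D.alpha g := by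
  by_cases hf : f ∈ F
  · by_cases hg : g ∈ F
    · rw [D.alpha_of_mem hf, D.alpha_of_mem hg, D.alpha_of_mem (add_mem hf hg), D.tau_add hf hg]
    · have hgf := add_notMem hg hf
      rw [add_comm f g, D.alpha_of_notMem hgf, D.alpha_of_mem hf, D.alpha_of_notMem hg,
        D.a0_add_F hg hf, add_comm]
  · by_cases hg : g ∈ F
    · have hfg := add_notMem hf hg
      rw [D.alpha_of_notMem hfg, D.alpha_of_mem hg, D.alpha_of_notMem hf, D.a0_add_F hf hg]
    · rw [D.alpha_of_notMem hf, D.alpha_of_notMem hg]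
      by_cases hgen : D.a0 g ∈ adj (D.a0 f)
      · obtain ⟨h1, h2⟩ := D.a0_add_nongen hf hg hgen
        by_cases hfg : f + g ∈ F
        · rw [D.alpha_of_mem hfg, h1 hfg]
        · rw [D.alpha_of_notMem hfg, h2 hfg]
      · obtain ⟨h1, h2, -⟩ := D.gen_add ⟨hf, hg, hgen⟩
        rw [D.alpha_of_notMem h1, h2]

theorem alpha_one : D.alpha 1 = 1 := by
  rw [D.alpha_of_mem F.one_mem, D.tau_one]

theorem alpha_R {u : K} (hu : u ≠ 0) : R u (D.alpha u) := by
  by_cases hF : u ∈ F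
  · rw [D.alpha_of_mem hF]
    have h1 : R u 1 := by simpa using D.R3 D.R_one hF hu
    simpa using D.R2 h1 (D.tau_mem hF) (D.tau_ne_zero hF hu)
  · rw [D.alpha_of_notMem hF]
    exact (D.a0_spec hF).1

include D in
/-- **A2–A6.** There is an additive map `α : K →+ L` with `α 1 = 1` and `R u (α u)` for all
`u ≠ 0`. -/
theorem exists_addHom : ∃ α : K →+ L, α 1 = 1 ∧ ∀ u : K, u ≠ 0 → R u (α u) := by
  have h0 : D.alpha 0 = 0 := by rw [D.alpha_of_mem F.zero_mem, D.tau_zero]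
  exact ⟨AddMonoidHom.mk' D.alpha D.alpha_add, D.alpha_one, fun u hu => D.alpha_R hu⟩

end A6

end LineData

end Crest.Agent.Helper48.S0010
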