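import Crest.Agent.Helper48.S0010.ASAdd

/-!
# S0010 (row 9), work package AS, steps A7–A8, abstract form  (helper48)

An additive `α : K →+ L` with `α 1 = 1` and `R u (α u)` for all `u ≠ 0` is multiplicative.
Main result `LineData.exists_ringHom`: there is a ring hom `α : K →+* L` with `R u (α u)`
for every `u ≠ 0`.
-/

set_option autoImplicit false

namespace Crest.Agent.Helper48.S0010

variable {K L : Type*} [Field K] [Field L]

namespace LineData

variable {F : Subfield K} {F' : Subfield L} {adj : L → Subfield L} {R : K → L → Prop}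

section A78

variable (D : LineData F F' adj R) (α : K →+ L) (h1 : α 1 = 1)
  (hR : ∀ u : K, u ≠ 0 → R u (α u))
include D h1 hR

theorem al_ne_zero {u : K} (hu : u ≠ 0) : α u ≠ 0 := (D.R0 (hR u hu)).2

theorem al_mem {c : K} (hc : c ∈ F) : α c ∈ F' := by
  by_cases hc0 : c = 0
  · rw [hc0, map_zero]; exact F'.zero_mem
  · exact D.mem_of_mem (hR c hc0) hc

theorem al_notMem {u : K} (hu : u ∉ F) : α u ∉ F' :=
  D.notMem (hR u (fun h => hu (h ▸ F.zero_mem))) hu

theorem al_mul_aux {c u : K} (hc : c ∈ F) (hc0 : c ≠ 0) (hu : u ∉ F) :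
    α (c * u) * α c⁻¹ = α u := by
  have hu0 : u ≠ 0 := fun h => hu (h ▸ F.zero_mem)
  have hcu0 : c * u ≠ 0 := mul_ne_zero hc0 hu0
  have hinv : c⁻¹ ∈ F := inv_mem hc
  have r1 : R (c * u) (α u) := D.R3 (hR u hu0) hc hc0
  obtain ⟨e, he, he0, hee⟩ := D.ratio r1 (hR _ hcu0)
  have hne : u + c⁻¹ ≠ 0 := fun h0 => add_notMem hu hinv (h0 ▸ F.zero_mem)
  have r2 : R (c * (u + c⁻¹)) (α (u + c⁻¹)) := D.R3 (hR _ hne) hc hc0
  have hcu1 : c * (u + c⁻¹) = c * u + 1 := by field_simp
  have hne1 : c * u + 1 ≠ 0 := hcu1 ▸ mul_ne_zero hc0 hne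
  rw [hcu1] at r2
  obtain ⟨e', he', he0', hee'⟩ := D.ratio r2 (hR _ hne1)
  rw [map_add, map_add, h1, hee] at hee'
  have key : (1 - e' * α c⁻¹) + (e - e') * α u = 0 := by linear_combination hee'
  obtain ⟨k1, k2⟩ := D.indep2 (al_notMem D α h1 hR hu)
    (sub_mem F'.one_mem (mul_mem he' (al_mem D α h1 hR hinv))) (sub_mem he he') key
  have hee2 : e = e' := by linear_combination k2
  rw [hee, hee2]
  linear_combination (-(α u)) * k1

theorem al_mul_inv {c : K} (hc : c ∈ F) (hc0 : c ≠ 0) : α c * α c⁻¹ = 1 := by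
  obtain ⟨u, hu⟩ := D.exists_notMem
  have hu1 : u + 1 ∉ F := add_notMem hu F.one_mem
  have e1 := al_mul_aux D α h1 hR hc hc0 hu
  have e2 := al_mul_aux D α h1 hR hc hc0 hu1
  have hexp : c * (u + 1) = c * u + c := by ring
  rw [hexp, map_add, map_add, h1] at e2
  linear_combination e2 - e1

theorem al_mul_F {c u : K} (hc : c ∈ F) (hu : u ∉ F) : α (c * u) = α c * α u := by
  by_cases hc0 : c = 0
  · simp [hc0]
  · have e1 := al_mul_aux D α h1 hR hc hc0 hu
    have e2 := al_mul_inv D α h1 hR hc hc0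
    linear_combination (α c) * e1 - (α (c * u)) * e2

theorem al_mul_FF {c d : K} (hc : c ∈ F) (hd : d ∈ F) : α (c * d) = α c * α d := by
  by_cases hd0 : d = 0
  · simp [hd0]
  · obtain ⟨w, hw⟩ := D.exists_notMem
    have hdw : d * w ∉ F := by
      intro h
      apply hw
      have := mul_mem (inv_mem hd) h
      rwa [inv_mul_cancel_left₀ hd0] at this
    have e1 := al_mul_F D α h1 hR hc hdw
    have e2 := al_mul_F D α h1 hR hd hw
    have e3 := al_mul_F D α h1 hR (mul_mem hc hd) hw
    rw [← mul_assoc, e3, e2] at e1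
    have hw0 := al_ne_zero D α h1 hR (fun h => hw (h ▸ F.zero_mem) : w ≠ 0)
    apply mul_right_cancel₀ hw0
    linear_combination e1

theorem al_mul (u w : K) : α (u * w) = α u * α w := by
  by_cases hu0 : u = 0
  · simp [hu0]
  by_cases hw0 : w = 0
  · simp [hw0]
  by_cases hw : w ∈ F
  · by_cases hu : u ∈ F
    · exact al_mul_FF D α h1 hR hu hw
    · rw [mul_comm u w, al_mul_F D α h1 hR hw hu, mul_comm]
  · by_cases hu : u ∈ F
    · exact al_mul_F D α h1 hR hu hw
    · have huw0 : u * w ≠ 0 := mul_ne_zero hu0 hw0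
      have r := D.R5 (hR u hu0) (hR w hw0)
      obtain ⟨ε, hε, hε0, hεε⟩ := D.ratio r (hR _ huw0)
      have hw1 : w + 1 ∉ F := add_notMem hw F.one_mem
      have hw10 : w + 1 ≠ 0 := fun h => hw1 (h ▸ F.zero_mem)
      have r' := D.R5 (hR u hu0) (hR _ hw10)
      obtain ⟨ε', hε', hε0', hεε'⟩ := D.ratio r' (hR _ (mul_ne_zero hu0 hw10))
      have hexp : u * (w + 1) = u * w + u := by ring
      rw [hexp, map_add, map_add, h1, hεε] at hεε'
      have hαu := al_ne_zero D α h1 hR hu0
      have key : (1 - ε') + (ε - ε') * α w = 0 := by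
        have h2 : α u * ((1 - ε') + (ε - ε') * α w) = 0 := by linear_combination hεε'
        exact (mul_eq_zero.mp h2).resolve_left hαu
      obtain ⟨k1, k2⟩ := D.indep2 (al_notMem D α h1 hR hw) (sub_mem F'.one_mem hε')
        (sub_mem hε hε') key
      have hε1 : ε = 1 := by linear_combination k2 - k1
      rw [hεε, hε1, one_mul]

end A78

/-- **A2–A8 (assembly core), abstract form.** There is a ring hom `α : K →+* L` with
`R u (α u)` for every `u ≠ 0`. -/
theorem exists_ringHom (D : LineData F F' adj R) :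
    ∃ α : K →+* L, ∀ u : K, u ≠ 0 → R u (α u) := by
  obtain ⟨α, h1, hR⟩ := D.exists_addHom
  exact ⟨{ toFun := α, map_one' := h1, map_mul' := al_mul D α h1 hR, map_zero' := map_zero α,
           map_add' := map_add α }, hR⟩

end LineData

end Crest.Agent.Helper48.S0010
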