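import Crest.Agent.Helper19.S0010.ASBasic
import Crest.Agent.Helper48.S0010.ASMul

/-!
# S0010 (row 9), AS-core track T4: bridge to helper19's `NormLine`  (helper48)

`NormLine p s` (helper19's `ASBasic`, the output shape of AS1) implies the abstract `LineData`
of `ASAdd.lean`, hence the joint statement J2:

`normLine_exists_ringHom : NormLine p s → ∃ α : K →+* L, ∀ u ≠ 0, PRel p (s u) (α u)`.
-/

set_option autoImplicit false

namespace Crest.Agent.Helper48.S0010

open Crest.Agent.Helper19.S0010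

variable {K L : Type*} [Field K] [Field L] {p : ℕ} [Fact p.Prime] [CharP K p] [CharP L p]

theorem lineData_of_normLine {s : K → L} (h : NormLine p s) :
    LineData (pPow K p) (pPow L p) (pAdj p) (fun f z => f ≠ 0 ∧ PRel p (s f) z) := by
  have part1 : ∀ x : L, ∃ y, y ∉ pAdj p x := by
    intro x
    by_cases hx : x ∈ pPow L p
    · obtain ⟨y, hy⟩ := h.nonperfect
      exact ⟨y, by rw [pAdj_eq_pPow_of_mem p hx]; exact hy⟩
    · exact h.partner x hx
  refine
  { le_adj := fun x => pPow_le_pAdj p x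
    mem_adj := fun x => self_mem_pAdj p x
    adj_le := fun hz => pAdj_mono p hz
    R0 := ?_
    Rex := ?_
    Rsurj := ?_
    R1 := ?_
    R2 := ?_
    R3 := ?_
    R4 := ?_
    R5 := ?_
    symm := ?_
    part := ?_
    LL1 := ?_ }
  · -- R0
    rintro f z ⟨hf, hr⟩
    exact ⟨hf, hr.ne_zero_iff.1 (h.ne_zero f hf)⟩
  · -- Rex
    intro f hf
    exact ⟨s f, hf, PRel.refl _⟩
  · -- Rsurj
    intro z hz
    obtain ⟨g, hg, hr⟩ := h.surj z hz
    exact ⟨g, hg, hr⟩
  · -- R1
    rintro f z z' ⟨hf, hr⟩ ⟨-, hr'⟩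
    have hz : z ≠ 0 := hr.ne_zero_iff.1 (h.ne_zero f hf)
    obtain ⟨e, he, he0, hee⟩ := hr'.symm.trans hr
    rw [hee, mul_div_assoc, div_self hz, mul_one]
    exact he
  · -- R2
    rintro f z e ⟨hf, hr⟩ he he0
    exact ⟨hf, hr.trans (prel_self_mul he he0 z)⟩
  · -- R3
    rintro f z c ⟨hf, hr⟩ hc hc0
    refine ⟨mul_ne_zero hc0 hf, ?_⟩
    have h1 := h.mul c f hc0 hf
    have h2 : PRel p (s c * s f) (s f) :=
      prel_mul_self ((h.pow_iff c hc0).2 hc) (h.ne_zero c hc0) (s f)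
    exact (h1.trans h2).trans hr
  · -- R4
    rintro f f' z ⟨hf, hr⟩ ⟨hf', hr'⟩
    have hd : f' / f ≠ 0 := div_ne_zero hf' hf
    have h1 := h.mul (f' / f) f hd hf
    rw [div_mul_cancel₀ _ hf] at h1
    -- s f' ~ s (f'/f) * s f  and  s f' ~ s f
    have h2 : PRel p (s (f' / f) * s f) (s f) := h1.symm.trans (hr'.trans hr.symm)
    obtain ⟨e, he, he0, hee⟩ := h2
    have : s (f' / f) = e := mul_right_cancel₀ (h.ne_zero f hf) hee
    exact (h.pow_iff _ hd).1 (this ▸ he)
  · -- R5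
    rintro f g z w ⟨hf, hr⟩ ⟨hg, hr'⟩
    exact ⟨mul_ne_zero hf hg, (h.mul f g hf hg).trans (hr.mul hr')⟩
  · -- symm
    intro x y hx hy
    exact (PIndep.symm (⟨hx, hy⟩ : PIndep p x y)).2
  · -- part
    intro x x'
    obtain ⟨y1, hy1⟩ := part1 x
    obtain ⟨y2, hy2⟩ := part1 x'
    by_cases h1 : y1 ∈ pAdj p x'
    · by_cases h2 : y2 ∈ pAdj p x
      · refine ⟨y1 + y2, fun hc => hy1 ?_, fun hc => hy2 ?_⟩
        · have := sub_mem hc h2
          simpa using this
        · have := sub_mem hc h1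
          simpa using this
      · exact ⟨y2, h2, hy2⟩
    · exact ⟨y1, hy1, h1⟩
  · -- LL1
    rintro f g x y ⟨hf, hr⟩ ⟨hg, hr'⟩ hx hy
    have hind : PIndep p (s f) (s g) := PIndep.congr (⟨hx, hy⟩ : PIndep p x y) hr hr'
    obtain ⟨P, Q, lam, hlam, hl, hfg⟩ := h.line f g hf hg hind
    have hfK : f ∉ pPow K p := fun hc => hind.1 ((h.pow_iff f hf).2 hc)
    have hgK : g ∉ pPow K p := fun hc => hind.symm.1 ((h.pow_iff g hg).2 hc)
    have hfg0 : f + g ≠ 0 := by
      intro h0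
      have hg' : g = (-1) * f := by linear_combination h0
      have hneg1 : (-1 : K) ∈ pPow K p := neg_mem (pPow K p).one_mem
      have hm1 : (-1 : K) ≠ 0 := neg_ne_zero.2 one_ne_zero
      have h1 := h.mul (-1) f hm1 hf
      rw [← hg'] at h1
      have h2 : PRel p (s (-1) * s f) (s f) :=
        prel_mul_self ((h.pow_iff (-1) hm1).2 hneg1) (h.ne_zero _ hm1) (s f)
      have h3 : PRel p (s g) (s f) := h1.trans h2
      exact hind.2 ((h3.mem_pAdj_iff (s f)).2 (self_mem_pAdj p (s f)))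
    refine ⟨P, Q, lam, hlam, fun c hc => ⟨⟨?_, (hl c hc).1⟩, ⟨?_, (hl c hc).2⟩, ⟨hfg0, hfg⟩⟩⟩
    · intro h0
      apply hfK
      have : f = -c := by linear_combination h0
      rw [this]; exact neg_mem hc
    · intro h0
      apply hgK
      have : g = c := by linear_combination h0
      rw [this]; exact hc

/-- **Joint J2 (AS-core), track T4.** -/
theorem normLine_exists_ringHom {s : K → L} (h : NormLine p s) :
    ∃ α : K →+* L, ∀ u : K, u ≠ 0 → PRel p (s u) (α u) := by
  obtain ⟨α, hα⟩ := (lineData_of_normLine h).exists_ringHom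
  exact ⟨α, fun u hu => (hα u hu).2⟩

end Crest.Agent.Helper48.S0010
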